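import Mathlib

/-!
# Metsch / Szőnyi–Weiner bound via a Hankel determinant

If `B` is a finite family of affine functionals on `F × F` (`F` a finite field with `q` elements),
`U` the set of points where none of them vanishes and `s` the number of points of `U` on some fixed
line, then `s (2q - |B| - s) ≤ |U|`.
-/

set_option autoImplicit false

open Finset Polynomial

namespace Crest.Agent.R34h

variable {F : Type*} [Field F] [Fintype F] [DecidableEq F] {ι : Type*}

/-- The polynomial (in `X`) `∏_{i ∈ B} (α i X + β i y + γ i)`. -/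
noncomputable def Rp (B : Finset ι) (α β γ : ι → F) (y : F) : F[X] :=
  ∏ i ∈ B, (C (α i) * X + C (β i * y + γ i))

/-- Power sums. -/
noncomputable def Tp (B : Finset ι) (α β γ : ι → F) (k : ℕ) : F[X] :=
  ∑ y : F, C (y ^ k) * Rp B α β γ y

lemma eval_Rp (B : Finset ι) (α β γ : ι → F) (x y : F) :
    (Rp B α β γ y).eval x = ∏ i ∈ B, (α i * x + β i * y + γ i) := by
  unfold Rp
  rw [eval_prod]
  refine prod_congr rfl fun i _ => ?_
  simp [add_assoc]

lemma coeff_Tp_eq_zero (α β γ : ι → F) (B : Finset ι) :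
    ∀ k d : ℕ, B.card + k + 1 < Fintype.card F + d → (Tp B α β γ k).coeff d = 0 := by
  classical
  induction B using Finset.induction_on with
  | empty =>
    intro k d h
    unfold Tp Rp
    simp only [prod_empty, mul_one, finsetSum_coeff, coeff_C]
    split_ifs with hd
    · subst hd
      apply FiniteField.sum_pow_lt_card_sub_one
      simp at h; omega
    · simp
  | insert i B hi ih =>
    intro k d h
    rw [card_insert_of_notMem hi] at h
    have : Tp (insert i B) α β γ k =
        C (α i) * (X * Tp B α β γ k) + C (γ i) * Tp B α β γ k + C (β i) * Tp B α β γ (k + 1) := by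
      unfold Tp
      simp only [mul_sum, ← sum_add_distrib]
      refine sum_congr rfl fun y _ => ?_
      unfold Rp
      rw [prod_insert hi]
      simp only [C_add, C_mul, pow_succ]
      ring
    rw [this]
    simp only [coeff_add, coeff_C_mul]
    rw [ih k d (by omega), ih (k + 1) d (by omega)]
    cases d with
    | zero => simp
    | succ d => rw [coeff_X_mul, ih k d (by omega)]; simp

/-- The Hankel matrix of the power sums. -/
noncomputable def Hk (B : Finset ι) (α β γ : ι → F) (s : ℕ) : Matrix (Fin s) (Fin s) F[X] :=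
  Matrix.of fun i j => Tp B α β γ (i + j)

lemma natDegree_det_Hk (α β γ : ι → F) (B : Finset ι) (s : ℕ) (h : (Hk B α β γ s).det ≠ 0) :
    ((Hk B α β γ s).det.natDegree : ℤ) ≤ s * (B.card - Fintype.card F + s) := by
  classical
  set D : ℤ := s * (B.card - Fintype.card F + s) with hD
  have key : ∀ σ : Equiv.Perm (Fin s), (∏ i, Hk B α β γ s (σ i) i) ≠ 0 →
      ((∏ i, Hk B α β γ s (σ i) i).natDegree : ℤ) ≤ D := by
    intro σ hσ
    have h1 : ∀ i, Hk B α β γ s (σ i) i ≠ 0 := fun i => (prod_ne_zero_iff.1 hσ) i (mem_univ _)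
    have h2 : ∀ i : Fin s, ((Hk B α β γ s (σ i) i).natDegree : ℤ) ≤
        B.card + 1 - Fintype.card F + ((σ i : ℕ) : ℤ) + ((i : ℕ) : ℤ) := by
      intro i
      by_contra hc
      push Not at hc
      apply h1 i
      rw [← leadingCoeff_eq_zero]
      unfold leadingCoeff
      have : Hk B α β γ s (σ i) i = Tp B α β γ (σ i + i) := rfl
      rw [this] at hc ⊢
      apply coeff_Tp_eq_zero
      omega
    have h3 : (∏ i, Hk B α β γ s (σ i) i).natDegree ≤ ∑ i, (Hk B α β γ s (σ i) i).natDegree :=
      natDegree_prod_le _ _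
    have h4 : ∑ i : Fin s, ((σ i : ℕ) : ℤ) = ∑ i : Fin s, ((i : ℕ) : ℤ) :=
      Equiv.sum_comp σ (fun i => ((i : ℕ) : ℤ))
    have h5 : 2 * ∑ i : Fin s, ((i : ℕ) : ℤ) = s * (s - 1) := by
      have := Finset.sum_range_id_mul_two s
      rw [Fin.sum_univ_eq_sum_range (fun i => (i : ℤ)) s]
      rcases Nat.eq_zero_or_pos s with rfl | hs
      · simp
      · have h6 : ((∑ i ∈ range s, i : ℕ) : ℤ) * 2 = s * ((s - 1 : ℕ) : ℤ) := by exact_mod_cast this
        rw [Nat.cast_sub hs] at h6
        push_cast at h6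
        linarith
    calc ((∏ i, Hk B α β γ s (σ i) i).natDegree : ℤ)
        ≤ ∑ i, ((Hk B α β γ s (σ i) i).natDegree : ℤ) := by exact_mod_cast h3
      _ ≤ ∑ i : Fin s, ((B.card : ℤ) + 1 - Fintype.card F + ((σ i : ℕ) : ℤ) + ((i : ℕ) : ℤ)) :=
          sum_le_sum fun i _ => h2 i
      _ = D := by
          rw [sum_add_distrib, sum_add_distrib, h4, hD]
          simp only [sum_const, card_univ, Fintype.card_fin, nsmul_eq_mul]
          linarith
  have hD0 : 0 ≤ D := by
    by_contra hc
    apply h
    rw [Matrix.det_apply]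
    refine sum_eq_zero fun σ _ => ?_
    by_cases hσ : (∏ i, Hk B α β γ s (σ i) i) = 0
    · simp [hσ]
    · have := key σ hσ
      have : (0 : ℤ) ≤ (∏ i, Hk B α β γ s (σ i) i).natDegree := Int.natCast_nonneg _
      omega
  have : (Hk B α β γ s).det.natDegree ≤ D.toNat := by
    rw [Matrix.det_apply]
    apply natDegree_sum_le_of_forall_le
    intro σ _
    refine (natDegree_smul_le _ _).trans ?_
    by_cases hσ : (∏ i, Hk B α β γ s (σ i) i) = 0
    · simp [hσ]
    · have := key σ hσ
      omega
  omega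

lemma det_Hk_expand (α β γ : ι → F) (B : Finset ι) (s : ℕ) :
    (Hk B α β γ s).det = ∑ f : Fin s → F, (∏ i, (C (f i ^ (i : ℕ)) * Rp B α β γ (f i))) *
      C (Matrix.vandermonde f).det := by
  classical
  have h1 : Hk B α β γ s = fun i : Fin s => ∑ y : F,
      (C (y ^ (i : ℕ)) * Rp B α β γ y) • (fun j : Fin s => (C (y ^ (j : ℕ)) : F[X])) := by
    ext1 i j
    simp only [Hk, Tp, Matrix.of_apply, Finset.sum_apply, Pi.smul_apply, smul_eq_mul]
    refine sum_congr rfl fun y _ => ?_
    rw [pow_add, C_mul]; ring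
  rw [h1]
  have h2 := (Matrix.detRowAlternating (n := Fin s) (R := F[X])).toMultilinearMap.map_sum
    (fun (i : Fin s) (y : F) => (C (y ^ (i : ℕ)) * Rp B α β γ y) •
      (fun j : Fin s => (C (y ^ (j : ℕ)) : F[X])))
  refine h2.trans (sum_congr rfl fun f _ => ?_)
  rw [MultilinearMap.map_smul_univ, smul_eq_mul]
  congr 1
  rw [RingHom.map_det]
  congr 1

lemma dvd_det_Hk (α β γ : ι → F) (B : Finset ι) (s : ℕ) (c : F) :
    (X - C c) ^ (s - (univ.filter (fun y : F => ∀ i ∈ B, α i * c + β i * y + γ i ≠ 0)).card) ∣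
      (Hk B α β γ s).det := by
  classical
  rw [det_Hk_expand]
  refine dvd_sum fun f _ => ?_
  by_cases hf : Function.Injective f
  · apply Dvd.dvd.mul_right
    set U := univ.filter (fun y : F => ∀ i ∈ B, α i * c + β i * y + γ i ≠ 0) with hU
    set J : Finset (Fin s) := univ.filter (fun i => f i ∉ U) with hJ
    have hc : s - U.card ≤ J.card := by
      have h1 : (univ.filter (fun i => f i ∈ U)).card ≤ U.card := by
        apply card_le_card_of_injOn f
        · intro i hi; simpa using (mem_filter.1 hi).2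
        · exact hf.injOn
      have h2 := card_filter_add_card_filter_not (s := (univ : Finset (Fin s))) (fun i => f i ∈ U)
      rw [card_univ, Fintype.card_fin, ← hJ] at h2
      omega
    refine (pow_dvd_pow _ hc).trans ?_
    refine Dvd.dvd.trans ?_ (prod_dvd_prod_of_subset J univ _ (subset_univ _))
    rw [← prod_const]
    refine prod_dvd_prod_of_dvd _ _ fun i hi => ?_
    apply Dvd.dvd.mul_left
    rw [dvd_iff_isRoot, IsRoot.def, eval_Rp]
    have := (mem_filter.1 hi).2
    rw [hU, mem_filter] at this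
    push Not at this
    obtain ⟨j, hj, h0⟩ := this (mem_univ _)
    exact prod_eq_zero hj h0
  · have : (Matrix.vandermonde f).det = 0 := by
      by_contra h
      exact hf (Matrix.det_vandermonde_ne_zero_iff.1 h)
    simp [this]

lemma det_Hk_ne_zero (α β γ : ι → F) (B : Finset ι) (c : F) :
    (Hk B α β γ (univ.filter (fun y : F => ∀ i ∈ B, α i * c + β i * y + γ i ≠ 0)).card).det ≠ 0 := by
  classical
  set U := univ.filter (fun y : F => ∀ i ∈ B, α i * c + β i * y + γ i ≠ 0) with hU
  let e : Fin U.card → F := fun i => (U.equivFin.symm i : F)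
  have he : Function.Injective e := fun i j h => U.equivFin.symm.injective (Subtype.ext h)
  intro h
  have h1 := congrArg (Polynomial.evalRingHom c) h
  rw [RingHom.map_det, map_zero] at h1
  have h2 : (Polynomial.evalRingHom c).mapMatrix (Hk B α β γ U.card) =
      (Matrix.vandermonde e).transpose *
        Matrix.diagonal (fun k => (Rp B α β γ (e k)).eval c) * Matrix.vandermonde e := by
    ext i j
    rw [Matrix.mul_apply]
    simp only [RingHom.mapMatrix_apply, Matrix.map_apply, Hk, Tp, Matrix.of_apply,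
      coe_evalRingHom, eval_finsetSum, eval_mul, eval_C, Matrix.mul_diagonal,
      Matrix.transpose_apply, Matrix.vandermonde_apply]
    have h3 : ∑ y : F, y ^ ((i : ℕ) + j) * (Rp B α β γ y).eval c =
        ∑ y ∈ U, y ^ ((i : ℕ) + j) * (Rp B α β γ y).eval c := by
      symm
      apply sum_subset (subset_univ _)
      intro y _ hy
      rw [hU, mem_filter] at hy
      push Not at hy
      obtain ⟨k, hk, h0⟩ := hy (mem_univ _)
      rw [eval_Rp, prod_eq_zero hk h0, mul_zero]
    rw [h3, ← sum_coe_sort U, ← Equiv.sum_comp U.equivFin.symm]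
    refine sum_congr rfl fun k _ => ?_
    simp only [e]
    rw [pow_add]; ring
  rw [h2, Matrix.det_mul, Matrix.det_mul, Matrix.det_transpose, Matrix.det_diagonal] at h1
  have hv : (Matrix.vandermonde e).det ≠ 0 := Matrix.det_vandermonde_ne_zero_iff.2 he
  have hp : (∏ k, (Rp B α β γ (e k)).eval c) ≠ 0 := by
    refine prod_ne_zero_iff.2 fun k _ => ?_
    rw [eval_Rp]
    refine prod_ne_zero_iff.2 fun i hi => ?_
    have : e k ∈ U := (U.equivFin.symm k).2
    rw [hU, mem_filter] at this
    exact this.2 i hi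
  exact mul_ne_zero (mul_ne_zero hv hp) hv h1

/-- Vertical-line version. -/
theorem hankel_vertical (α β γ : ι → F) (B : Finset ι) (c : F) :
    ((univ.filter (fun y : F => ∀ i ∈ B, α i * c + β i * y + γ i ≠ 0)).card : ℤ) *
      (2 * Fintype.card F - B.card -
        (univ.filter (fun y : F => ∀ i ∈ B, α i * c + β i * y + γ i ≠ 0)).card) ≤
    (univ.filter (fun P : F × F => ∀ i ∈ B, α i * P.1 + β i * P.2 + γ i ≠ 0)).card := by
  classical
  let u : F → ℕ := fun x => (univ.filter (fun y : F => ∀ i ∈ B, α i * x + β i * y + γ i ≠ 0)).card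
  change (u c : ℤ) * (2 * Fintype.card F - B.card - u c) ≤ _
  have hne : (Hk B α β γ (u c)).det ≠ 0 := det_Hk_ne_zero α β γ B c
  have hdeg := natDegree_det_Hk α β γ B (u c) hne
  have hdvd : (∏ x : F, (X - C x) ^ (u c - u x)) ∣ (Hk B α β γ (u c)).det := by
    apply Finset.prod_dvd_of_coprime
    · intro x _ y _ hxy
      exact (isCoprime_X_sub_C_of_isUnit_sub (sub_ne_zero.2 hxy).isUnit).pow
    · intro x _
      exact dvd_det_Hk α β γ B (u c) x
  have h1 := natDegree_le_of_dvd hdvd hne
  rw [natDegree_prod_of_monic _ _ (fun x _ => (monic_X_sub_C x).pow _)] at h1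
  simp only [natDegree_pow, natDegree_X_sub_C, mul_one] at h1
  have h2 : (univ.filter (fun P : F × F => ∀ i ∈ B, α i * P.1 + β i * P.2 + γ i ≠ 0)).card =
      ∑ x : F, u x := by
    rw [card_eq_sum_card_fiberwise (f := Prod.fst) (t := univ) (fun _ _ => mem_univ _)]
    refine sum_congr rfl fun x _ => ?_
    symm
    apply card_bij (fun y _ => (x, y))
    · intro y hy
      simpa using hy
    · intro y _ y' _ h
      exact (Prod.ext_iff.1 h).2
    · intro P hP
      simp only [mem_filter, mem_univ, true_and] at hP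
      refine ⟨P.2, ?_, ?_⟩
      · simp only [mem_filter, mem_univ, true_and]
        rw [← hP.2]; exact hP.1
      · rw [← hP.2]
  rw [h2]
  have h3 : ∑ x : F, ((u c : ℤ) - u x) ≤ ((∑ x : F, (u c - u x) : ℕ) : ℤ) := by
    push_cast
    exact sum_le_sum fun x _ => by omega
  rw [sum_sub_distrib] at h3
  simp only [sum_const, card_univ, nsmul_eq_mul] at h3
  have h4 : ((∑ x : F, (u c - u x) : ℕ) : ℤ) ≤ (Hk B α β γ (u c)).det.natDegree := by
    exact_mod_cast h1
  push_cast
  nlinarith

/-- **Metsch bound.**  `U` = points on none of the lines `α i x + β i y + γ i = 0` (`i ∈ B`), and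
`s` = number of points of `U` on the line `a x + b y = c`; then `s (2q - |B| - s) ≤ |U|`. -/
theorem hankel_bound (α β γ : ι → F) (B : Finset ι) (a b c : F) (hab : a ≠ 0 ∨ b ≠ 0) :
    ((univ.filter (fun P : F × F => (∀ i ∈ B, α i * P.1 + β i * P.2 + γ i ≠ 0) ∧
        a * P.1 + b * P.2 = c)).card : ℤ) *
      (2 * Fintype.card F - B.card -
        (univ.filter (fun P : F × F => (∀ i ∈ B, α i * P.1 + β i * P.2 + γ i ≠ 0) ∧
        a * P.1 + b * P.2 = c)).card) ≤
    (univ.filter (fun P : F × F => ∀ i ∈ B, α i * P.1 + β i * P.2 + γ i ≠ 0)).card := by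
  classical
  -- an affine parametrisation `(u, v) ↦ (p u + r v, p' u + r' v)` with `a x + b y = u`
  obtain ⟨p, r, p', r', e, he, hu⟩ : ∃ (p r p' r' : F) (e : F × F ≃ F × F),
      (∀ Q : F × F, e Q = (p * Q.1 + r * Q.2, p' * Q.1 + r' * Q.2)) ∧
      ∀ Q : F × F, a * (e Q).1 + b * (e Q).2 = Q.1 := by
    rcases hab with ha | hb
    · refine ⟨a⁻¹, -(b * a⁻¹), 0, 1,
        ⟨fun Q => (a⁻¹ * Q.1 + -(b * a⁻¹) * Q.2, 0 * Q.1 + 1 * Q.2),
         fun P => (a * P.1 + b * P.2, P.2), ?_, ?_⟩, fun Q => rfl, ?_⟩
      · intro Q; ext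
        · simp only; field_simp; ring
        · simp
      · intro Q; ext
        · simp only; field_simp; ring
        · simp
      · intro Q; simp only [Equiv.coe_fn_mk]; field_simp; ring
    · refine ⟨0, 1, b⁻¹, -(a * b⁻¹),
        ⟨fun Q => (0 * Q.1 + 1 * Q.2, b⁻¹ * Q.1 + -(a * b⁻¹) * Q.2),
         fun P => (a * P.1 + b * P.2, P.1), ?_, ?_⟩, fun Q => rfl, ?_⟩
      · intro Q; ext
        · simp only; field_simp; ring
        · simp
      · intro Q; ext
        · simp
        · simp only; field_simp; ring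
      · intro Q; simp only [Equiv.coe_fn_mk]; field_simp; ring
  have key := hankel_vertical (fun i => α i * p + β i * p') (fun i => α i * r + β i * r') γ B c
  have hlin : ∀ (i : ι) (Q : F × F), α i * (e Q).1 + β i * (e Q).2 + γ i =
      (α i * p + β i * p') * Q.1 + (α i * r + β i * r') * Q.2 + γ i := by
    intro i Q; rw [he]; ring
  have h1 : (univ.filter (fun P : F × F => ∀ i ∈ B, α i * P.1 + β i * P.2 + γ i ≠ 0)).card =
      (univ.filter (fun Q : F × F => ∀ i ∈ B,
        (α i * p + β i * p') * Q.1 + (α i * r + β i * r') * Q.2 + γ i ≠ 0)).card := by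
    symm
    apply card_bij (fun Q _ => e Q)
    · intro Q hQ
      simp only [mem_filter, mem_univ, true_and] at hQ ⊢
      intro i hi; rw [hlin]; exact hQ i hi
    · intro Q _ Q' _ h; exact e.injective h
    · intro P hP
      refine ⟨e.symm P, ?_, by simp⟩
      simp only [mem_filter, mem_univ, true_and] at hP ⊢
      intro i hi; rw [← hlin]; simpa using hP i hi
  have h2 : (univ.filter (fun P : F × F => (∀ i ∈ B, α i * P.1 + β i * P.2 + γ i ≠ 0) ∧
        a * P.1 + b * P.2 = c)).card =
      (univ.filter (fun y : F => ∀ i ∈ B,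
        (α i * p + β i * p') * c + (α i * r + β i * r') * y + γ i ≠ 0)).card := by
    symm
    apply card_bij (fun y _ => e (c, y))
    · intro y hy
      simp only [mem_filter, mem_univ, true_and] at hy ⊢
      refine ⟨fun i hi => ?_, hu _⟩
      rw [hlin]; exact hy i hi
    · intro y _ y' _ h
      exact (Prod.ext_iff.1 (e.injective h)).2
    · intro P hP
      simp only [mem_filter, mem_univ, true_and] at hP ⊢
      have h3 : (e.symm P).1 = c := by
        rw [← hu (e.symm P), e.apply_symm_apply]; exact hP.2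
      have h4 : (c, (e.symm P).2) = e.symm P := by rw [← h3]
      refine ⟨(e.symm P).2, ?_, by rw [h4]; simp⟩
      intro i hi
      have := hlin i (e.symm P)
      rw [e.apply_symm_apply, h3] at this
      rw [← this]; exact hP.1 i hi
  rw [h1, h2]
  exact key

end Crest.Agent.R34h
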